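import Vale.Agent.Lib.P208.H28.Pigeon

/-!
# P208 (helper28): doubling convex subsets of a Hilbert space are finite-dimensional
-/

namespace Vale.Agent.Lib.P208.H28

open Metric Set

variable {H : Type*} [NormedAddCommGroup H] [InnerProductSpace ℝ H]

/-- Any finite linearly independent subset of `{y - x0 : y ∈ K}` has at most `N / 2`
elements. -/
theorem card_le_of_linearIndependent {K : Set H} (hK : Convex ℝ K) (N : ℕ)
    (hdoub : ∀ x ∈ K, ∀ r : ℝ, 0 < r → ∃ C : Finset H, (↑C ⊆ K) ∧ C.card ≤ N ∧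
      K ∩ ball x r ⊆ ⋃ c ∈ C, closedBall c (r / 2))
    {x0 : H} (hx0 : x0 ∈ K) (t : Finset H) (ht : (↑t : Set H) ⊆ (fun y => y - x0) '' K)
    (hli : LinearIndependent ℝ (Subtype.val : (↑t : Set H) → H)) : 2 * t.card ≤ N := by
  classical
  set n := t.card with hn
  have eq : Fin n ≃ (↑t : Set H) := (t.equivFin).symm
  have hex : ∀ j : Fin n, ∃ y ∈ K, y - x0 = (eq j : H) := by
    intro j
    have : (eq j : H) ∈ (fun y => y - x0) '' K := ht (eq j).2
    obtain ⟨y, hy, hyeq⟩ := this
    exact ⟨y, hy, hyeq⟩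
  choose y hyK hyeq using hex
  have hv : LinearIndependent ℝ (fun j => y j - x0) := by
    have h1 : LinearIndependent ℝ (fun j : Fin n => ((eq j : (↑t : Set H)) : H)) :=
      hli.comp eq eq.injective
    have h2 : (fun j => y j - x0) = fun j : Fin n => ((eq j : (↑t : Set H)) : H) := by
      funext j; exact hyeq j
    rw [h2]; exact h1
  exact two_mul_le_of_independent hK N hdoub hx0 y hyK hv

/-- Main theorem: a convex set satisfying the covering hypothesis with `N` embeds
isometrically into a Euclidean space of dimension at most `N / 2`. -/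
theorem convex_doubling_embeds (K : Set H) (hK : Convex ℝ K) (N : ℕ)
    (hdoub : ∀ x ∈ K, ∀ r : ℝ, 0 < r → ∃ C : Finset H, (↑C ⊆ K) ∧ C.card ≤ N ∧
      K ∩ ball x r ⊆ ⋃ c ∈ C, closedBall c (r / 2)) :
    ∃ k : ℕ, 2 * k ≤ N ∧ ∃ f : K → EuclideanSpace ℝ (Fin k), Isometry f := by
  classical
  rcases K.eq_empty_or_nonempty with hempty | ⟨x0, hx0⟩
  · subst hempty
    refine ⟨0, by omega, fun x => x.2.elim, ?_⟩
    intro x
    exact x.2.elim
  set S : Set H := (fun y => y - x0) '' K with hS
  obtain ⟨b, hbS, hbspan, hbli⟩ := exists_linearIndependent ℝ S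
  -- b is finite with 2 * card ≤ N
  have hbfin : b.Finite := by
    by_contra hinf
    obtain ⟨t, htb, htcard⟩ := (Set.not_finite.mp hinf).exists_subset_card_eq (N + 1)
    have hli : LinearIndependent ℝ (Subtype.val : (↑t : Set H) → H) :=
      LinearIndepOn.mono (R := ℝ) (v := (id : H → H)) hbli htb
    have := card_le_of_linearIndependent hK N hdoub hx0 t (htb.trans hbS) hli
    omega
  have hbcard : 2 * hbfin.toFinset.card ≤ N := by
    have hsub : (↑hbfin.toFinset : Set H) ⊆ b := by simp
    have hli : LinearIndependent ℝ (Subtype.val : (↑hbfin.toFinset : Set H) → H) :=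
      LinearIndepOn.mono (R := ℝ) (v := (id : H → H)) hbli hsub
    exact card_le_of_linearIndependent hK N hdoub hx0 hbfin.toFinset (hsub.trans hbS) hli
  set V : Submodule ℝ H := Submodule.span ℝ S with hV
  have hVb : V = Submodule.span ℝ b := by rw [hV, hbspan]
  have hfinV : FiniteDimensional ℝ V := by
    rw [hVb]; exact FiniteDimensional.span_of_finite ℝ hbfin
  have hrank : Module.finrank ℝ V ≤ hbfin.toFinset.card := by
    rw [hVb]
    have h1 := finrank_span_finset_le_card (R := ℝ) (M := H) hbfin.toFinset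
    rw [Set.Finite.coe_toFinset] at h1
    exact h1
  refine ⟨Module.finrank ℝ V, by omega, ?_⟩
  have hmemV : ∀ y : K, (y : H) - x0 ∈ V := fun y =>
    Submodule.subset_span ⟨y, y.2, rfl⟩
  refine ⟨fun y => (stdOrthonormalBasis ℝ V).repr ⟨(y : H) - x0, hmemV y⟩, ?_⟩
  refine Isometry.of_dist_eq (fun y z => ?_)
  rw [LinearIsometryEquiv.dist_map, Subtype.dist_eq, Subtype.dist_eq, dist_eq_norm,
    dist_eq_norm]
  congr 1
  show (y : H) - x0 - ((z : H) - x0) = (y : H) - z
  abel

end Vale.Agent.Lib.P208.H28
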