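import Vale.Agent.Lib.P208.H28.Simplex

/-!
# P208 (helper28): the covering hypothesis bounds the number of independent directions
-/

namespace Vale.Agent.Lib.P208.H28

open Metric Set

variable {H : Type*} [NormedAddCommGroup H] [InnerProductSpace ℝ H]

/-- The vertices of the cross-polytope. -/
noncomputable def vertex {n : ℕ} (c : H) (R : ℝ) (e : Fin n → H) (p : Fin n × Bool) : H :=
  if p.2 then c + R • e p.1 else c - R • e p.1

theorem vertex_dist_center {n : ℕ} (c : H) {R : ℝ} (hR : 0 < R) {e : Fin n → H}
    (he : Orthonormal ℝ e) (p : Fin n × Bool) : dist (vertex c R e p) c = R := by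
  have h1 : ‖e p.1‖ = 1 := he.1 p.1
  unfold vertex
  split_ifs
  · rw [dist_eq_norm, add_sub_cancel_left, norm_smul, h1, Real.norm_eq_abs, abs_of_pos hR,
      mul_one]
  · rw [dist_eq_norm, sub_sub_cancel_left, norm_neg, norm_smul, h1, Real.norm_eq_abs,
      abs_of_pos hR, mul_one]

theorem vertex_dist_sq {n : ℕ} (c : H) {R : ℝ} (hR : 0 < R) {e : Fin n → H}
    (he : Orthonormal ℝ e) {p q : Fin n × Bool} (hpq : p ≠ q) :
    2 * R ^ 2 ≤ dist (vertex c R e p) (vertex c R e q) ^ 2 := by
  have hn : ∀ i, ‖e i‖ = 1 := he.1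
  have hinner : ∀ i j, i ≠ j → inner ℝ (e i) (e j) = 0 := fun i j hij => he.2 hij
  obtain ⟨i, s⟩ := p
  obtain ⟨j, s'⟩ := q
  rw [dist_eq_norm]
  by_cases hij : i = j
  · subst hij
    have hs : s ≠ s' := by
      intro h; apply hpq; rw [h]
    have h4 : ‖vertex c R e (i, s) - vertex c R e (i, s')‖ ^ 2 = 4 * R ^ 2 := by
      cases s <;> cases s' <;> simp only [vertex] at * <;> try exact absurd rfl hs
      · have : c - R • e i - (c + R • e i) = (-(2 * R)) • e i := by
          rw [neg_smul, mul_smul, two_smul]; abel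
        simp only [Bool.false_eq_true, if_false, if_true]
        rw [this, norm_smul, hn i, Real.norm_eq_abs, abs_neg, abs_of_pos (by linarith)]
        ring
      · have : c + R • e i - (c - R • e i) = (2 * R) • e i := by
          rw [mul_smul, two_smul]; abel
        simp only [Bool.false_eq_true, if_false, if_true]
        rw [this, norm_smul, hn i, Real.norm_eq_abs, abs_of_pos (by linarith)]
        ring
    rw [h4]
    nlinarith [sq_nonneg R]
  · have h2 : ∀ (a b : ℝ), |a| = R → |b| = R →
        ‖a • e i - b • e j‖ ^ 2 = 2 * R ^ 2 := by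
      intro a b ha hb
      rw [norm_sub_sq_real, norm_smul, norm_smul, hn i, hn j, real_inner_smul_left,
        real_inner_smul_right, hinner i j hij, Real.norm_eq_abs, Real.norm_eq_abs, ha, hb]
      ring
    have hRabs : |R| = R := abs_of_pos hR
    have hRneg : |-R| = R := by rw [abs_neg, hRabs]
    have h3 : ‖vertex c R e (i, s) - vertex c R e (j, s')‖ ^ 2 = 2 * R ^ 2 := by
      cases s <;> cases s' <;> simp only [vertex, Bool.false_eq_true, if_false, if_true]
      · have : c - R • e i - (c - R • e j) = (-R) • e i - (-R) • e j := by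
          rw [neg_smul, neg_smul]; abel
        rw [this]; exact h2 _ _ hRneg hRneg
      · have : c - R • e i - (c + R • e j) = (-R) • e i - R • e j := by
          rw [neg_smul]; abel
        rw [this]; exact h2 _ _ hRneg hRabs
      · have : c + R • e i - (c - R • e j) = R • e i - (-R) • e j := by
          rw [neg_smul]; abel
        rw [this]; exact h2 _ _ hRabs hRneg
      · have : c + R • e i - (c + R • e j) = R • e i - R • e j := by abel
        rw [this]; exact h2 _ _ hRabs hRabs
    rw [h3]

/-- If `K` is convex, satisfies the covering hypothesis with `N` and contains `n`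
independent directions from `x0`, then `2 n ≤ N`. -/
theorem two_mul_le_of_independent {K : Set H} (hK : Convex ℝ K) (N : ℕ)
    (hdoub : ∀ x ∈ K, ∀ r : ℝ, 0 < r → ∃ C : Finset H, (↑C ⊆ K) ∧ C.card ≤ N ∧
      K ∩ ball x r ⊆ ⋃ c ∈ C, closedBall c (r / 2))
    {n : ℕ} {x0 : H} (hx0 : x0 ∈ K) (y : Fin n → H) (hy : ∀ j, y j ∈ K)
    (hv : LinearIndependent ℝ (fun j => y j - x0)) : 2 * n ≤ N := by
  obtain ⟨c, R, e, hc, hR, he, hmem⟩ := exists_cross_polytope hK hx0 y hy hv
  obtain ⟨C, _, hcard, hcover⟩ := hdoub c hc (6 / 5 * R) (by positivity)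
  have hvK : ∀ p : Fin n × Bool, vertex c R e p ∈ K := by
    intro p
    unfold vertex
    split_ifs
    · exact (hmem p.1).1
    · exact (hmem p.1).2
  have hvball : ∀ p : Fin n × Bool, vertex c R e p ∈ K ∩ ball c (6 / 5 * R) := by
    intro p
    refine ⟨hvK p, ?_⟩
    rw [mem_ball, vertex_dist_center c hR he p]
    linarith
  have hex : ∀ p : Fin n × Bool, ∃ z ∈ C, vertex c R e p ∈ closedBall z (6 / 5 * R / 2) := by
    intro p
    have := hcover (hvball p)
    simpa [mem_iUnion] using this
  choose g hgC hgball using hex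
  have hinj : Function.Injective g := by
    intro p q hpq
    by_contra hne
    have h1 : dist (vertex c R e p) (g p) ≤ 6 / 5 * R / 2 := mem_closedBall.mp (hgball p)
    have h2 : dist (vertex c R e q) (g p) ≤ 6 / 5 * R / 2 := by
      rw [hpq]; exact mem_closedBall.mp (hgball q)
    have h3 : dist (vertex c R e p) (vertex c R e q) ≤ 6 / 5 * R := by
      calc dist (vertex c R e p) (vertex c R e q)
          ≤ dist (vertex c R e p) (g p) + dist (g p) (vertex c R e q) := dist_triangle _ _ _
        _ ≤ 6 / 5 * R / 2 + 6 / 5 * R / 2 := by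
            rw [dist_comm (g p)]; exact add_le_add h1 h2
        _ = 6 / 5 * R := by ring
    have h4 := vertex_dist_sq c hR he hne
    have h5 : dist (vertex c R e p) (vertex c R e q) ^ 2 ≤ (6 / 5 * R) ^ 2 :=
      pow_le_pow_left₀ dist_nonneg h3 2
    nlinarith [sq_pos_of_pos hR]
  have hcard2 : Fintype.card (Fin n × Bool) ≤ C.card := by
    have := Finset.card_le_card_of_injOn (s := (Finset.univ : Finset (Fin n × Bool))) (t := C) g
      (fun p _ => hgC p) (fun p _ q _ h => hinj h)
    simpa using this
  have h6 : Fintype.card (Fin n × Bool) = 2 * n := by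
    simp [Fintype.card_prod, mul_comm]
  omega

end Vale.Agent.Lib.P208.H28
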