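import Mathlib

/-!
# P208 (helper28): a cross-polytope inside a convex set with `n` independent directions
-/

namespace Vale.Agent.Lib.P208.H28

open Metric Set

variable {H : Type*} [NormedAddCommGroup H] [InnerProductSpace ℝ H]

/-- Points `x0 + ∑ w_j (y_j - x0)` with `w ≥ 0`, `∑ w ≤ 1` lie in a convex set containing
`x0` and all `y_j`. -/
theorem simplex_mem {K : Set H} (hK : Convex ℝ K) {n : ℕ} {x0 : H} (hx0 : x0 ∈ K)
    (y : Fin n → H) (hy : ∀ j, y j ∈ K) (w : Fin n → ℝ) (hw0 : ∀ j, 0 ≤ w j)
    (hw1 : ∑ j, w j ≤ 1) : x0 + ∑ j, w j • (y j - x0) ∈ K := by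
  have h := hK.sum_mem (t := (Finset.univ : Finset (Option (Fin n))))
    (w := fun o => Option.elim o (1 - ∑ j, w j) w) (z := fun o => Option.elim o x0 y)
    (by
      intro o _
      cases o with
      | none => simpa using hw1
      | some j => simpa using hw0 j)
    (by simp [Fintype.sum_option])
    (by
      intro o _
      cases o with
      | none => simpa using hx0
      | some j => simpa using hy j)
  have heq : ∑ o : Option (Fin n), (Option.elim o (1 - ∑ j, w j) w) • (Option.elim o x0 y)
      = x0 + ∑ j, w j • (y j - x0) := by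
    simp only [Fintype.sum_option, Option.elim_none, Option.elim_some, smul_sub,
      Finset.sum_sub_distrib, ← Finset.sum_smul, sub_smul, one_smul]
    abel
  rw [heq] at h
  exact h

/-- An orthonormal family inside the span of a linearly independent family, with
coefficients. -/
theorem exists_orthonormal_in_span {n : ℕ} (v : Fin n → H) (hv : LinearIndependent ℝ v) :
    ∃ (e : Fin n → H) (a : Fin n → Fin n → ℝ), Orthonormal ℝ e ∧
      ∀ i, ∑ j, a i j • v j = e i := by
  set V : Submodule ℝ H := Submodule.span ℝ (Set.range v) with hV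
  have hfin : Module.finrank ℝ V = n := by
    rw [hV, finrank_span_eq_card hv, Fintype.card_fin]
  have : FiniteDimensional ℝ V := FiniteDimensional.span_of_finite ℝ (Set.finite_range v)
  set b : OrthonormalBasis (Fin n) ℝ V :=
    (stdOrthonormalBasis ℝ V).reindex (finCongr hfin) with hb
  have hmem : ∀ i, ∃ c : Fin n → ℝ, ∑ j, c j • v j = (b i : H) := by
    intro i
    have : (b i : H) ∈ Submodule.span ℝ (Set.range v) := (b i).2
    exact (Submodule.mem_span_range_iff_exists_fun ℝ).mp this
  choose a ha using hmem
  refine ⟨fun i => (b i : H), a, ?_, ha⟩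
  rw [orthonormal_iff_ite]
  intro i j
  have := (orthonormal_iff_ite.mp b.orthonormal) i j
  simpa [Submodule.coe_inner] using this

/-- A cross-polytope `c ± R e_i` inside a convex set with `n` independent directions. -/
theorem exists_cross_polytope {K : Set H} (hK : Convex ℝ K) {n : ℕ} {x0 : H} (hx0 : x0 ∈ K)
    (y : Fin n → H) (hy : ∀ j, y j ∈ K)
    (hv : LinearIndependent ℝ (fun j => y j - x0)) :
    ∃ (c : H) (R : ℝ) (e : Fin n → H), c ∈ K ∧ 0 < R ∧ Orthonormal ℝ e ∧
      ∀ i, c + R • e i ∈ K ∧ c - R • e i ∈ K := by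
  obtain ⟨e, a, he, hae⟩ := exists_orthonormal_in_span (fun j => y j - x0) hv
  set t : ℝ := 1 / (2 * ((n : ℝ) + 1)) with ht
  have htpos : 0 < t := by positivity
  set A : ℝ := ∑ i, ∑ j, |a i j| + 1 with hA
  have hApos : 0 < A := by
    have : 0 ≤ ∑ i, ∑ j, |a i j| :=
      Finset.sum_nonneg (fun i _ => Finset.sum_nonneg (fun j _ => abs_nonneg _))
    linarith
  have haA : ∀ i j, |a i j| ≤ A := by
    intro i j
    have h1 : |a i j| ≤ ∑ j', |a i j'| :=
      Finset.single_le_sum (f := fun j' => |a i j'|) (fun j' _ => abs_nonneg _) (Finset.mem_univ j)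
    have h2 : ∑ j', |a i j'| ≤ ∑ i', ∑ j', |a i' j'| :=
      Finset.single_le_sum (f := fun i' => ∑ j', |a i' j'|)
        (fun i' _ => Finset.sum_nonneg (fun j' _ => abs_nonneg _)) (Finset.mem_univ i)
    linarith
  set R : ℝ := t / A with hR
  have hRpos : 0 < R := div_pos htpos hApos
  have hRa : ∀ i j, |R * a i j| ≤ t := by
    intro i j
    rw [abs_mul, abs_of_pos hRpos, hR, div_mul_eq_mul_div, div_le_iff₀ hApos]
    exact mul_le_mul_of_nonneg_left (haA i j) htpos.le
  have hsumt : ∑ _j : Fin n, (2 * t) ≤ 1 := by
    rw [Finset.sum_const, Finset.card_univ, Fintype.card_fin, nsmul_eq_mul, ht]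
    rw [show (n : ℝ) * (2 * (1 / (2 * ((n : ℝ) + 1)))) = (n : ℝ) / ((n : ℝ) + 1) by
      field_simp]
    rw [div_le_one (by positivity)]
    linarith
  set c : H := x0 + ∑ j, t • (y j - x0) with hc
  have key : ∀ (s : ℝ) (i : Fin n), |s| = 1 →
      c + (s * R) • e i ∈ K := by
    intro s i hs
    have hmem := simplex_mem hK hx0 y hy (fun j => t + s * R * a i j)
      (by
        intro j
        have h1 := hRa i j
        have h2 : |s * R * a i j| ≤ t := by
          rw [mul_assoc, abs_mul, hs, one_mul]; exact h1
        have := abs_le.mp h2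
        linarith [this.1])
      (by
        refine le_trans (Finset.sum_le_sum (fun j _ => ?_)) hsumt
        have h1 := hRa i j
        have h2 : |s * R * a i j| ≤ t := by
          rw [mul_assoc, abs_mul, hs, one_mul]; exact h1
        have := abs_le.mp h2
        linarith [this.2])
    have heq : x0 + ∑ j, (t + s * R * a i j) • (y j - x0) = c + (s * R) • e i := by
      rw [hc, ← hae i, Finset.smul_sum, add_assoc, ← Finset.sum_add_distrib]
      congr 1
      refine Finset.sum_congr rfl (fun j _ => ?_)
      rw [add_smul, smul_smul]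
    rw [heq] at hmem
    exact hmem
  refine ⟨c, R, e, ?_, hRpos, he, ?_⟩
  · have := simplex_mem hK hx0 y hy (fun _ => t) (fun _ => htpos.le)
      (le_trans (Finset.sum_le_sum (fun j _ => by linarith)) hsumt)
    exact this
  · intro i
    constructor
    · have := key 1 i (by simp)
      simpa using this
    · have := key (-1) i (by simp)
      simpa [sub_eq_add_neg] using this

end Vale.Agent.Lib.P208.H28
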